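import Vale.Agent.Lib.P331.Un.Count

/-! # P331: buckets inside the blocks: an element is alone in its bucket for a third of the choices -/

namespace Vale.Agent.Lib.P331

private lemma card_fin_eq (n x : ℕ) (hx : x < n) :
    (Finset.univ.filter (fun y : Fin n => (y : ℕ) = x)).card = 1 := by
  refine Finset.card_eq_one.2 ⟨⟨x, hx⟩, ?_⟩
  ext y
  simp [Fin.ext_iff]

private lemma card_fin_ne (n x : ℕ) (hx : x < n) :
    (Finset.univ.filter (fun y : Fin n => (y : ℕ) ≠ x)).card = n - 1 := by
  have h : Finset.univ.filter (fun y : Fin n => (y : ℕ) ≠ x) =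
      Finset.univ.erase (⟨x, hx⟩ : Fin n) := by
    ext y
    simp [Fin.ext_iff]
  rw [h, Finset.card_erase_of_mem (Finset.mem_univ _), Finset.card_univ, Fintype.card_fin]

theorem count_alone_dep {E : Type} [Fintype E] [DecidableEq E] (blk : E → ℕ) (cap : ℕ → ℕ)
    (I : Finset E) (hI : ∀ j, (I.filter (fun e => blk e = j)).card ≤ cap j) (e : E) (he : e ∈ I) :
    Fintype.card ((f : E) → Fin (cap (blk f))) ≤ 3 * (Finset.univ.filter
      (fun b : (f : E) → Fin (cap (blk f)) =>
        ∀ f ∈ I, f ≠ e → blk f = blk e → (b f : ℕ) ≠ (b e : ℕ))).card := by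
  classical
  set c : ℕ := cap (blk e) with hc
  set J : Finset E := I.filter (fun f => blk f = blk e) with hJ
  have heJ : e ∈ J := Finset.mem_filter.2 ⟨he, rfl⟩
  have hJc : J.card ≤ c := hI (blk e)
  have hJ1 : 1 ≤ J.card := Finset.card_pos.2 ⟨e, heJ⟩
  have hk : 1 ≤ c := hJ1.trans hJc
  have hcapJ : ∀ f ∈ J, cap (blk f) = c := by
    intro f hf
    rw [(Finset.mem_filter.1 hf).2]
  let R : ℕ := ∏ f ∈ Jᶜ, cap (blk f)
  let S : Fin c → Finset ((f : E) → Fin (cap (blk f))) := fun x =>
    Fintype.piFinset (fun f => if f = e then Finset.univ.filter (fun y => (y : ℕ) = (x : ℕ)) else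
      if f ∈ J then Finset.univ.filter (fun y => (y : ℕ) ≠ (x : ℕ)) else Finset.univ)
  have hcard : ∀ x, (S x).card = (c - 1) ^ (J.card - 1) * R := by
    intro x
    rw [Fintype.card_piFinset, ← Finset.prod_mul_prod_compl J]
    congr 1
    · rw [← Finset.mul_prod_erase J _ heJ]
      simp only [if_true]
      rw [card_fin_eq _ _ x.2, one_mul]
      rw [Finset.prod_congr rfl (g := fun _ => c - 1)]
      · rw [Finset.prod_const, Finset.card_erase_of_mem heJ]
      · intro f hf
        have h1 : f ≠ e := Finset.ne_of_mem_erase hf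
        have h2 : f ∈ J := Finset.mem_of_mem_erase hf
        simp only [h1, h2, if_false, if_true]
        rw [card_fin_ne _ _ (by rw [hcapJ f h2]; exact x.2), hcapJ f h2]
    · refine Finset.prod_congr rfl ?_
      intro f hf
      have h2 : f ∉ J := Finset.mem_compl.1 hf
      have h1 : f ≠ e := fun h => h2 (h ▸ heJ)
      simp [h1, h2]
  have hdisj : ∀ x ∈ (Finset.univ : Finset (Fin c)), ∀ x' ∈ (Finset.univ : Finset (Fin c)),
      x ≠ x' → Disjoint (S x) (S x') := by
    intro x _ x' _ hxx
    rw [Finset.disjoint_left]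
    intro b hb hb'
    have h1 := Fintype.mem_piFinset.1 hb e
    have h2 := Fintype.mem_piFinset.1 hb' e
    simp at h1 h2
    exact hxx (Fin.ext (h1.symm.trans h2))
  have hsub : Finset.univ.biUnion S ⊆ Finset.univ.filter
      (fun b : (f : E) → Fin (cap (blk f)) =>
        ∀ f ∈ I, f ≠ e → blk f = blk e → (b f : ℕ) ≠ (b e : ℕ)) := by
    intro b hb
    obtain ⟨x, -, hx⟩ := Finset.mem_biUnion.1 hb
    rw [Finset.mem_filter]
    refine ⟨Finset.mem_univ _, fun f hf hfe hblk => ?_⟩
    have hfJ : f ∈ J := Finset.mem_filter.2 ⟨hf, hblk⟩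
    have h1 := Fintype.mem_piFinset.1 hx e
    have h2 := Fintype.mem_piFinset.1 hx f
    simp at h1
    simp [hfe, hfJ] at h2
    rw [h1]
    exact h2
  have hle := Finset.card_le_card hsub
  rw [Finset.card_biUnion hdisj] at hle
  simp only [hcard, Finset.sum_const, Finset.card_univ, Fintype.card_fin, smul_eq_mul] at hle
  have hpow := pow_le_three_mul c (J.card - 1) hk (by omega)
  have hkn : Fintype.card ((f : E) → Fin (cap (blk f))) = c * c ^ (J.card - 1) * R := by
    rw [Fintype.card_pi, ← Finset.prod_mul_prod_compl J]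
    congr 1
    · rw [Finset.prod_congr rfl (g := fun _ => c)]
      · rw [Finset.prod_const, ← pow_succ']
        congr 1
        omega
      · intro f hf
        rw [Fintype.card_fin, hcapJ f hf]
    · refine Finset.prod_congr rfl ?_
      intro f _
      rw [Fintype.card_fin]
  rw [hkn]
  calc c * c ^ (J.card - 1) * R
      ≤ c * (3 * (c - 1) ^ (J.card - 1)) * R := by gcongr
    _ = 3 * (c * ((c - 1) ^ (J.card - 1) * R)) := by ring
    _ ≤ _ := Nat.mul_le_mul_left 3 hle

end Vale.Agent.Lib.P331
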