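import Vale.Agent.Lib.P331.Cap.Opt
import Vale.Agent.Lib.P331.Sp.Family
import Vale.Agent.Lib.P331.Gr.PartComp

/-! # P331: partition matroids with arbitrary capacities: ratio `1 / 108` -/

namespace Vale.Agent.Lib.P331

open scoped NNReal ENNReal

variable {E : Type} [Fintype E] [DecidableEq E]

theorem cap_competitive (M : Matroid E) (blk : E → ℕ) (cap : ℕ → ℕ) (hcap : ∀ j, 1 ≤ cap j)
    (hM : ∀ I : Set E, M.Indep I ↔ ∀ j, (I ∩ {e | blk e = j}).encard ≤ cap j) :
    ∃ R : Rule E, Competitive M R (1 / 36 / (3 : ℕ)) := by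
  haveI : Nonempty ((f : E) → Fin (cap (blk f))) := ⟨fun f => ⟨0, hcap (blk f)⟩⟩
  exact competitive_of_family M
    (fun b : (f : E) → Fin (cap (blk f)) => keyM (fun e => Nat.pair (blk e) (b e : ℕ)) Set.univ)
    (fun b I hI => capbucket_indep M blk cap hM b I hI) 3 (opt_le_capbuckets M blk cap hM) (1 / 36)
    (fun _ => ⟨_, keyM_competitive _ _⟩)

end Vale.Agent.Lib.P331
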