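import Vale.Agent.Lib.P331.Cap.Count
import Vale.Agent.Lib.P331.Gr.Part

/-! # P331: a partition matroid with capacities is covered on average by unit partition matroids -/

namespace Vale.Agent.Lib.P331

open scoped NNReal ENNReal

variable {E : Type} [Fintype E] [DecidableEq E]

theorem capbucket_indep (M : Matroid E) (blk : E → ℕ) (cap : ℕ → ℕ)
    (hM : ∀ I : Set E, M.Indep I ↔ ∀ j, (I ∩ {e | blk e = j}).encard ≤ cap j)
    (b : (f : E) → Fin (cap (blk f))) (I : Set E)
    (h : (keyM (fun e => Nat.pair (blk e) (b e : ℕ)) Set.univ).Indep I) : M.Indep I := by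
  rw [hM]
  intro j
  have hinj := ((keyM_indep_iff _ _ _).1 h).1
  have hg : Set.InjOn (fun e => (b e : ℕ)) (I ∩ {e | blk e = j}) := by
    intro x hx y hy hxy
    apply hinj hx.1 hy.1
    have h1 : blk x = j := hx.2
    have h2 : blk y = j := hy.2
    exact Nat.pair_eq_pair.2 ⟨h1.trans h2.symm, hxy⟩
  have hsub : (fun e => (b e : ℕ)) '' (I ∩ {e | blk e = j}) ⊆
      ((Finset.range (cap j) : Finset ℕ) : Set ℕ) := by
    rintro _ ⟨e, he, rfl⟩
    have h1 : blk e = j := he.2
    have h2 : (b e : ℕ) < cap (blk e) := (b e).2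
    have h3 : cap (blk e) = cap j := congrArg cap h1
    have h4 : (b e : ℕ) < cap j := lt_of_lt_of_eq h2 h3
    simpa using h4
  calc (I ∩ {e | blk e = j}).encard
      = ((fun e => (b e : ℕ)) '' (I ∩ {e | blk e = j})).encard := (hg.encard_image).symm
    _ ≤ (((Finset.range (cap j) : Finset ℕ) : Set ℕ)).encard := Set.encard_le_encard hsub
    _ = cap j := by rw [Set.encard_coe_eq_coe_finsetCard, Finset.card_range]

theorem opt_le_capbuckets (M : Matroid E) (blk : E → ℕ) (cap : ℕ → ℕ)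
    (hM : ∀ I : Set E, M.Indep I ↔ ∀ j, (I ∩ {e | blk e = j}).encard ≤ cap j) (v : E → ℝ≥0) :
    (Fintype.card ((f : E) → Fin (cap (blk f))) : ℝ≥0) * opt M v ≤
      (3 : ℕ) * ∑ b : (f : E) → Fin (cap (blk f)),
        opt (keyM (fun e => Nat.pair (blk e) (b e : ℕ)) Set.univ) v := by
  classical
  obtain ⟨I, hI, hopt⟩ : ∃ I : Finset E, M.Indep (I : Set E) ∧ opt M v = ∑ e ∈ I, v e := by
    have hne : (Finset.univ.filter (fun I : Finset E => M.Indep (I : Set E))).Nonempty :=
      ⟨∅, Finset.mem_filter.mpr ⟨Finset.mem_univ _, by simp⟩⟩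
    obtain ⟨I, hI, h⟩ := Finset.exists_mem_eq_sup _ hne (fun I : Finset E => ∑ e ∈ I, v e)
    refine ⟨I, (Finset.mem_filter.mp hI).2, ?_⟩
    unfold opt
    convert h
  have hIk : ∀ j, (I.filter (fun e => blk e = j)).card ≤ cap j := by
    intro j
    have h1 := (hM I).1 hI j
    have h2 : ((I : Set E) ∩ {e | blk e = j}) = ((I.filter (fun e => blk e = j) : Finset E) : Set E) := by
      ext x
      simp
    rw [h2, Set.encard_coe_eq_coe_finsetCard] at h1
    exact_mod_cast h1
  have hA : ∀ b : (f : E) → Fin (cap (blk f)),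
      ∑ e ∈ I.filter (fun e => ∀ f ∈ I, f ≠ e → blk f = blk e → (b f : ℕ) ≠ (b e : ℕ)), v e ≤
      opt (keyM (fun e => Nat.pair (blk e) (b e : ℕ)) Set.univ) v := by
    intro b
    apply sum_le_opt
    rw [keyM_indep_iff]
    refine ⟨?_, Set.subset_univ _⟩
    intro x hx y hy hxy
    by_contra hne
    have hx' := Finset.mem_filter.mp (Finset.mem_coe.mp hx)
    have hy' := Finset.mem_filter.mp (Finset.mem_coe.mp hy)
    have hp := Nat.pair_eq_pair.mp hxy
    exact hx'.2 y hy'.1 (fun e => hne e.symm) hp.1.symm hp.2.symm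
  have hswap : ∑ b : (f : E) → Fin (cap (blk f)),
      ∑ e ∈ I.filter (fun e => ∀ f ∈ I, f ≠ e → blk f = blk e → (b f : ℕ) ≠ (b e : ℕ)), v e =
      ∑ e ∈ I, ((Finset.univ.filter
        (fun b : (f : E) → Fin (cap (blk f)) =>
          ∀ f ∈ I, f ≠ e → blk f = blk e → (b f : ℕ) ≠ (b e : ℕ))).card : ℝ≥0) * v e := by
    simp_rw [Finset.sum_filter]
    rw [Finset.sum_comm]
    apply Finset.sum_congr rfl
    intro e _
    rw [← Finset.sum_filter, Finset.sum_const, nsmul_eq_mul]
  rw [hopt, Finset.mul_sum]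
  calc ∑ e ∈ I, (Fintype.card ((f : E) → Fin (cap (blk f))) : ℝ≥0) * v e
      ≤ ∑ e ∈ I, ((3 : ℕ) : ℝ≥0) * (((Finset.univ.filter
        (fun b : (f : E) → Fin (cap (blk f)) =>
          ∀ f ∈ I, f ≠ e → blk f = blk e → (b f : ℕ) ≠ (b e : ℕ))).card : ℝ≥0) * v e) := by
        apply Finset.sum_le_sum
        intro e he
        rw [← mul_assoc]
        apply mul_le_mul_left
        exact_mod_cast count_alone_dep blk cap I hIk e he
    _ = ((3 : ℕ) : ℝ≥0) * ∑ b : (f : E) → Fin (cap (blk f)),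
          ∑ e ∈ I.filter (fun e => ∀ f ∈ I, f ≠ e → blk f = blk e → (b f : ℕ) ≠ (b e : ℕ)),
            v e := by
        rw [hswap, Finset.mul_sum]
    _ ≤ ((3 : ℕ) : ℝ≥0) * ∑ b : (f : E) → Fin (cap (blk f)),
          opt (keyM (fun e => Nat.pair (blk e) (b e : ℕ)) Set.univ) v := by
        apply mul_le_mul_right
        exact Finset.sum_le_sum (fun b _ => hA b)

end Vale.Agent.Lib.P331
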